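import Mathlib

/-!
P097, case [c], row A5.ENT: the last sentence of every text of the tangential case.
A holomorphic map on the wide upper cone whose derivative along (sigma,1) vanishes on Sigma is
an entire function of kappa = z.1 - sigma z.2; with growth exponent < 1 (or values in a half
plane) it is constant.
-/

open Complex Set Filter Topology Metric

namespace Vale.Agent.P097.H100

/-- the wide upper cone -/
def Wc (s : ℝ) : Set (ℂ × ℂ) := {z | 0 < z.2.im ∧ z.1.im < s * z.2.im}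

theorem isOpen_Wc (s : ℝ) : IsOpen (Wc s) := by
  have h1 : Continuous fun z : ℂ × ℂ => z.2.im := Complex.continuous_im.comp continuous_snd
  have h2 : Continuous fun z : ℂ × ℂ => z.1.im := Complex.continuous_im.comp continuous_fst
  exact (isOpen_lt continuous_const h1).inter (isOpen_lt h2 (continuous_const.mul h1))

variable {E : Type*} [NormedAddCommGroup E] [NormedSpace ℂ E]

/-- an entire function of growth exponent `< 1` is constant -/
theorem entire_sublinear {y : ℂ → E} (hy : Differentiable ℂ y) {A θ : ℝ} (hθ : θ < 1)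
    (hg : ∀ k, ‖y k‖ ≤ A * (1 + ‖k‖) ^ θ) : ∃ c, ∀ k, y k = c := by
  have hA : 0 ≤ A := by
    have h := (norm_nonneg _).trans (hg 0)
    simpa using h
  set t := max θ 0 with ht
  have ht1 : t < 1 := max_lt hθ one_pos
  have ht0 : 0 ≤ t := le_max_right _ _
  have hg' : ∀ k, ‖y k‖ ≤ A * (1 + ‖k‖) ^ t := fun k =>
    (hg k).trans (mul_le_mul_of_nonneg_left
      (Real.rpow_le_rpow_of_exponent_le (by linarith [norm_nonneg k]) (le_max_left _ _)) hA)
  have key : ∀ c, deriv y c = 0 := by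
    intro c
    have hb : ∀ R : ℝ, 1 + ‖c‖ ≤ R → ‖deriv y c‖ ≤ A * 2 ^ t * R ^ (-(1 - t)) := by
      intro R hR
      have hR0 : 0 < R := by linarith [norm_nonneg c]
      have h1 := Complex.norm_deriv_le_of_forall_mem_sphere_norm_le (c := c) (R := R)
        (C := A * (2 * R) ^ t) hR0 hy.diffContOnCl (by
          intro z hz
          have hz' : ‖z - c‖ = R := by simpa [dist_eq_norm] using hz
          have h2 : ‖z‖ ≤ ‖c‖ + R := by
            calc ‖z‖ = ‖c + (z - c)‖ := by congr 1; ring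
              _ ≤ ‖c‖ + ‖z - c‖ := norm_add_le _ _
              _ = ‖c‖ + R := by rw [hz']
          refine (hg' z).trans (mul_le_mul_of_nonneg_left ?_ hA)
          exact Real.rpow_le_rpow (by positivity) (by linarith) ht0)
      refine h1.trans (le_of_eq ?_)
      rw [Real.mul_rpow (by norm_num) hR0.le, neg_sub, Real.rpow_sub hR0, Real.rpow_one]
      ring
    have hlim : Tendsto (fun R : ℝ => A * 2 ^ t * R ^ (-(1 - t))) atTop (𝓝 (A * 2 ^ t * 0)) :=
      (tendsto_rpow_neg_atTop (by linarith)).const_mul _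
    rw [mul_zero] at hlim
    have h3 : ‖deriv y c‖ ≤ 0 :=
      ge_of_tendsto hlim (eventually_atTop.2 ⟨1 + ‖c‖, fun R hR => hb R hR⟩)
    exact norm_le_zero_iff.1 h3
  exact ⟨y 0, fun k => is_const_of_deriv_eq_zero hy key k 0⟩

/-- an entire function with values in a half plane is constant -/
theorem entire_halfplane {y : ℂ → ℂ} (hy : Differentiable ℂ y) {H : ℝ}
    (hH : ∀ k, -H ≤ (y k).im) : ∃ c, ∀ k, y k = c := by
  have hd : Differentiable ℂ fun k => Complex.exp (I * y k) :=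
    ((hy.const_mul I)).cexp
  have hb : Bornology.IsBounded (range fun k => Complex.exp (I * y k)) := by
    rw [isBounded_iff_forall_norm_le]
    refine ⟨Real.exp H, ?_⟩
    rintro _ ⟨k, rfl⟩
    simp only [Complex.norm_exp]
    refine Real.exp_le_exp.2 ?_
    have : (I * y k).re = -(y k).im := by simp
    rw [this]; linarith [hH k]
  have key : ∀ c, deriv y c = 0 := by
    intro c
    have hc : ∀ k, Complex.exp (I * y k) = Complex.exp (I * y 0) := fun k =>
      hd.apply_eq_apply_of_bounded hb k 0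
    have h1 : HasDerivAt (fun k => Complex.exp (I * y k))
        (Complex.exp (I * y c) * (I * deriv y c)) c :=
      ((hy c).hasDerivAt.const_mul I).cexp
    have h2 : HasDerivAt (fun k => Complex.exp (I * y k)) 0 c := by
      have : (fun k => Complex.exp (I * y k)) = fun _ => Complex.exp (I * y 0) := funext hc
      rw [this]; exact hasDerivAt_const _ _
    have h3 := h1.unique h2
    have h4 := (mul_eq_zero.1 h3).resolve_left (Complex.exp_ne_zero _)
    exact (mul_eq_zero.1 h4).resolve_left I_ne_zero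
  exact ⟨y 0, fun k => is_const_of_deriv_eq_zero hy key k 0⟩

/-- strip version -/
theorem entire_strip {y : ℂ → ℂ} (hy : Differentiable ℂ y) {H : ℝ}
    (hH : ∀ k, |(y k).im| ≤ H) : ∃ c, ∀ k, y k = c :=
  entire_halfplane hy (H := H) fun k => (abs_le.1 (hH k)).1

section core

variable {σ s : ℝ} {X : ℂ × ℂ → E}

/-- the point with coordinates `(kappa, w)` -/
def pt (σ : ℝ) (k w : ℂ) : ℂ × ℂ := (k + σ * w, w)

theorem pt_mem {k w : ℂ} (hw : 0 < w.im) (hk : k.im < (s - σ) * w.im) : pt σ k w ∈ Wc s := by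
  refine ⟨hw, ?_⟩
  simp only [pt, add_im, mul_im, ofReal_re, ofReal_im, zero_mul, add_zero]
  nlinarith

theorem pt_kappa (k w : ℂ) : (pt σ k w).1 - σ * (pt σ k w).2 = k := by
  simp [pt]

theorem pt_of (z : ℂ × ℂ) : pt σ (z.1 - σ * z.2) z.2 = z := by
  ext <;> simp [pt]

theorem hasFDerivAt_X (hX : DifferentiableOn ℂ X (Wc s)) {z : ℂ × ℂ} (hz : z ∈ Wc s) :
    HasFDerivAt X (fderiv ℂ X z) z :=
  (hX.differentiableAt ((isOpen_Wc s).mem_nhds hz)).hasFDerivAt

/-- derivative in `w` at fixed `kappa` -/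
theorem hasDerivAt_w (hX : DifferentiableOn ℂ X (Wc s)) {k w : ℂ} (h : pt σ k w ∈ Wc s) :
    HasDerivAt (fun v => X (pt σ k v)) (fderiv ℂ X (pt σ k w) ((σ : ℂ), 1)) w := by
  have h1 : HasDerivAt (fun v : ℂ => pt σ k v) ((σ : ℂ), (1 : ℂ)) w := by
    have h2 : HasDerivAt (fun v : ℂ => k + σ * v) (σ : ℂ) w := by
      simpa using ((hasDerivAt_id w).const_mul (σ : ℂ)).const_add k
    exact h2.prodMk (hasDerivAt_id w)
  exact (hasFDerivAt_X hX h).comp_hasDerivAt w h1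

/-- derivative in `kappa` at fixed `w` -/
theorem hasDerivAt_k (hX : DifferentiableOn ℂ X (Wc s)) {k w : ℂ} (h : pt σ k w ∈ Wc s) :
    HasDerivAt (fun q => X (pt σ q w)) (fderiv ℂ X (pt σ k w) ((1 : ℂ), 0)) k := by
  have h1 : HasDerivAt (fun q : ℂ => pt σ q w) ((1 : ℂ), (0 : ℂ)) k :=
    ((hasDerivAt_id k).add_const ((σ : ℂ) * w)).prodMk (hasDerivAt_const k w)
  exact (hasFDerivAt_X hX h).comp_hasDerivAt k h1

theorem diffOn_w (hX : DifferentiableOn ℂ X (Wc s)) (k : ℂ) :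
    DifferentiableOn ℂ (fun v => X (pt σ k v)) {w | 0 < w.im ∧ k.im < (s - σ) * w.im} :=
  fun _ hw => (hasDerivAt_w hX (pt_mem hw.1 hw.2)).differentiableAt.differentiableWithinAt

theorem diffOn_k (hX : DifferentiableOn ℂ X (Wc s)) {w : ℂ} (hw : 0 < w.im) {m : ℝ}
    (hm : (s - σ) * m ≤ (s - σ) * w.im) :
    DifferentiableOn ℂ (fun q => X (pt σ q w)) {k | k.im < (s - σ) * m} :=
  fun _ hk => (hasDerivAt_k hX (pt_mem hw (lt_of_lt_of_le hk hm))).differentiableAt.differentiableWithinAt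

theorem isOpen_imlt (c : ℝ) : IsOpen {k : ℂ | k.im < c} :=
  isOpen_lt Complex.continuous_im continuous_const

theorem convex_imlt (c : ℝ) : Convex ℝ {k : ℂ | k.im < c} := by
  intro a ha b hb p q hp hq hpq
  simp only [mem_ofPred_eq, add_im, real_smul, mul_im, ofReal_re, ofReal_im, zero_mul, add_zero] at *
  rcases eq_or_lt_of_le hp with h | h
  · subst h; have : q = 1 := by linarith
    subst this; simpa using hb
  · calc p * a.im + q * b.im < p * c + q * c := by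
          have h1 : p * a.im < p * c := mul_lt_mul_of_pos_left ha h
          have h2 : q * b.im ≤ q * c := mul_le_mul_of_nonneg_left hb.le hq
          linarith
      _ = c := by rw [← add_mul, hpq, one_mul]

theorem isOpen_wdom (k : ℂ) : IsOpen {w : ℂ | 0 < w.im ∧ k.im < (s - σ) * w.im} :=
  (isOpen_lt continuous_const Complex.continuous_im).inter
    (isOpen_lt continuous_const (continuous_const.mul Complex.continuous_im))

theorem convex_wdom (k : ℂ) : Convex ℝ {w : ℂ | 0 < w.im ∧ k.im < (s - σ) * w.im} := by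
  intro a ha b hb p q hp hq hpq
  obtain ⟨ha1, ha2⟩ := ha
  obtain ⟨hb1, hb2⟩ := hb
  simp only [mem_ofPred_eq, add_im, real_smul, mul_im, ofReal_re, ofReal_im, zero_mul, add_zero]
  rcases eq_or_lt_of_le hp with h | h
  · subst h; have : q = 1 := by linarith
    subst this; simpa using ⟨hb1, hb2⟩
  · constructor
    · have h1 : 0 < p * a.im := mul_pos h ha1
      have h2 : 0 ≤ q * b.im := mul_nonneg hq hb1.le
      linarith
    · have h1 : p * k.im < p * ((s - σ) * a.im) := mul_lt_mul_of_pos_left ha2 h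
      have h2 : q * k.im ≤ q * ((s - σ) * b.im) := mul_le_mul_of_nonneg_left hb2.le hq
      have h3 : k.im = p * k.im + q * k.im := by rw [← add_mul, hpq, one_mul]
      rw [h3]; nlinarith

/-- two holomorphic functions on `{Im k < c}` that agree near one point agree -/
theorem ident [CompleteSpace E] {c : ℝ} {f g : ℂ → E}
    (hf : DifferentiableOn ℂ f {k | k.im < c}) (hg : DifferentiableOn ℂ g {k | k.im < c})
    {k₀ : ℂ} (h₀ : k₀.im < c) (hfg : ∃ᶠ k in 𝓝[≠] k₀, f k = g k) :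
    ∀ k : ℂ, k.im < c → f k = g k := fun _ hk =>
  (hf.analyticOnNhd (isOpen_imlt c)).eqOn_of_preconnected_of_frequently_eq
    (hg.analyticOnNhd (isOpen_imlt c)) (convex_imlt c).isPreconnected h₀ hfg hk

/-- the glue: independence of `w` for `kappa` in an accumulating set of real or very negative
values gives an entire function of `kappa` -/
theorem glue [CompleteSpace E] (hs : σ < s) (hX : DifferentiableOn ℂ X (Wc s)) {k₀ : ℂ}
    (hk₀ : k₀.im ≤ 0)
    (h0 : ∃ᶠ k in 𝓝[≠] k₀, ∀ w w' : ℂ, 0 < w.im → k.im < (s - σ) * w.im → 0 < w'.im →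
      k.im < (s - σ) * w'.im → X (pt σ k w) = X (pt σ k w')) :
    ∃ y : ℂ → E, Differentiable ℂ y ∧ (∀ z ∈ Wc s, X z = y (z.1 - σ * z.2)) := by
  have hsσ : 0 < s - σ := by linarith
  -- independence
  have hind : ∀ k w w' : ℂ, 0 < w.im → k.im < (s - σ) * w.im → 0 < w'.im →
      k.im < (s - σ) * w'.im → X (pt σ k w) = X (pt σ k w') := by
    intro k w w' hw hk hw' hk'
    set m := min w.im w'.im with hm
    have hm0 : 0 < m := lt_min hw hw'
    have hkm : k.im < (s - σ) * m := by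
      rcases le_total w.im w'.im with h | h
      · rw [hm, min_eq_left h]; exact hk
      · rw [hm, min_eq_right h]; exact hk'
    refine ident (c := (s - σ) * m) (f := fun q => X (pt σ q w)) (g := fun q => X (pt σ q w'))
      (diffOn_k hX hw (mul_le_mul_of_nonneg_left (min_le_left _ _) hsσ.le))
      (diffOn_k hX hw' (mul_le_mul_of_nonneg_left (min_le_right _ _) hsσ.le))
      (k₀ := k₀) (lt_of_le_of_lt hk₀ (mul_pos hsσ hm0)) ?_ k hkm
    have hev : ∀ᶠ q : ℂ in 𝓝[≠] k₀, q.im < (s - σ) * m :=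
      mem_nhdsWithin_of_mem_nhds ((isOpen_imlt _).mem_nhds (lt_of_le_of_lt hk₀ (mul_pos hsσ hm0)))
    refine (h0.and_eventually hev).mono ?_
    rintro q ⟨h1, h2⟩
    exact h1 w w' hw (h2.trans_le (mul_le_mul_of_nonneg_left (min_le_left _ _) hsσ.le)) hw'
      (h2.trans_le (mul_le_mul_of_nonneg_left (min_le_right _ _) hsσ.le))
  -- the entire function
  set N : ℂ → ℝ := fun k => (|k.im| + 1) / (s - σ) with hN
  have hN0 : ∀ k, 0 < N k := fun k => div_pos (by positivity) hsσ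
  have hN1 : ∀ k, (s - σ) * N k = |k.im| + 1 := fun k => by
    rw [hN]; field_simp
  have hIm : ∀ a : ℝ, ((a : ℂ) * I).im = a := fun a => by simp
  have hgood : ∀ k : ℂ, k.im < (s - σ) * ((N k : ℂ) * I).im := fun k => by
    rw [hIm, hN1]; linarith [le_abs_self k.im]
  refine ⟨fun k => X (pt σ k ((N k : ℂ) * I)), ?_, ?_⟩
  · intro k₁
    set w₁ : ℂ := ((N k₁ : ℂ) * I) with hw₁
    have hw1 : 0 < w₁.im := by rw [hw₁, hIm]; exact hN0 k₁
    have h1 : DifferentiableAt ℂ (fun k => X (pt σ k w₁)) k₁ :=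
      (hasDerivAt_k hX (pt_mem hw1 (hgood k₁))).differentiableAt
    refine h1.congr_of_eventuallyEq ?_
    have hev : ∀ᶠ q : ℂ in 𝓝 k₁, q.im < (s - σ) * w₁.im :=
      (isOpen_imlt _).mem_nhds (hgood k₁)
    filter_upwards [hev] with q hq
    exact hind q _ _ (by rw [hIm]; exact hN0 q) (hgood q) hw1 hq
  · intro z hz
    have hz2 : (z.1 - σ * z.2).im < (s - σ) * z.2.im := by
      have := hz.2
      simp only [sub_im, mul_im, ofReal_re, ofReal_im, zero_mul, add_zero]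
      nlinarith
    have h1 := hind (z.1 - σ * z.2) z.2 ((N (z.1 - σ * z.2) : ℂ) * I) hz.1 hz2
      (by rw [hIm]; exact hN0 _) (hgood _)
    rw [pt_of] at h1
    exact h1

/-- **entire function of kappa, from Sigma** -/
theorem wide_entire [CompleteSpace E] (hs : σ < s) (hX : DifferentiableOn ℂ X (Wc s))
    (h0 : ∀ z ∈ Wc s, (z.1 - σ * z.2).im = 0 → fderiv ℂ X z ((σ : ℂ), 1) = 0) :
    ∃ y : ℂ → E, Differentiable ℂ y ∧ (∀ z ∈ Wc s, X z = y (z.1 - σ * z.2)) := by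
  have hsσ : 0 < s - σ := by linarith
  refine glue hs hX (k₀ := 0) (by simp) ?_
  have hreal : ∀ k : ℂ, k.im = 0 → ∀ w w' : ℂ, 0 < w.im → k.im < (s - σ) * w.im → 0 < w'.im →
      k.im < (s - σ) * w'.im → X (pt σ k w) = X (pt σ k w') := by
    intro k hk w w' hw hkw hw' hkw'
    refine (isOpen_wdom (s := s) (σ := σ) k).is_const_of_deriv_eq_zero
      (convex_wdom k).isPreconnected (diffOn_w hX k) ?_ ⟨hw, hkw⟩ ⟨hw', hkw'⟩
    intro v hv
    have hmem := pt_mem (s := s) (σ := σ) (k := k) hv.1 hv.2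
    have h1 := (hasDerivAt_w hX hmem).deriv
    have h2 := h0 _ hmem (by rw [pt_kappa]; exact hk)
    rw [h2] at h1
    simpa using h1
  have hfr : ∃ᶠ k : ℂ in 𝓝[≠] (0 : ℂ), k.im = 0 := by
    have ht : Tendsto (fun n : ℕ => (((1 : ℝ) / ((n : ℝ) + 1) : ℝ) : ℂ)) atTop (𝓝[≠] (0 : ℂ)) := by
      refine tendsto_nhdsWithin_iff.2 ⟨?_, Eventually.of_forall fun n => ?_⟩
      · have := tendsto_one_div_add_atTop_nhds_zero_nat (𝕜 := ℝ)
        have h2 := (Complex.continuous_ofReal.tendsto 0).comp this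
        simpa [Function.comp_def] using h2
      · have : ((1 : ℝ) / ((n : ℝ) + 1)) ≠ 0 := by positivity
        simpa using (Complex.ofReal_ne_zero.2 this)
    refine ht.frequently (Frequently.of_forall fun n => ?_)
    exact Complex.ofReal_im _
  exact hfr.mono hreal

/-- **entire function of kappa, from a small open set** -/
theorem wide_entire_open [CompleteSpace E] (hs : σ < s) (hX : DifferentiableOn ℂ X (Wc s))
    {U : Set (ℂ × ℂ)} (hU : IsOpen U) (hUs : U ⊆ Wc s) (hne : U.Nonempty)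
    (h0 : ∀ z ∈ U, fderiv ℂ X z ((σ : ℂ), 1) = 0) :
    ∃ y : ℂ → E, Differentiable ℂ y ∧ (∀ z ∈ Wc s, X z = y (z.1 - σ * z.2)) := by
  have hsσ : 0 < s - σ := by linarith
  obtain ⟨z₀, hz₀⟩ := hne
  set k₁ : ℂ := z₀.1 - σ * z₀.2 with hk₁
  set w₁ : ℂ := z₀.2 with hw₁
  have hpt : pt σ k₁ w₁ = z₀ := pt_of z₀
  have hcont : Continuous fun p : ℂ × ℂ => pt σ p.1 p.2 := by
    unfold pt; fun_prop
  have hnb : ∀ᶠ p : ℂ × ℂ in 𝓝 (k₁, w₁), pt σ p.1 p.2 ∈ U :=
    hcont.continuousAt.preimage_mem_nhds (by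
      show U ∈ 𝓝 (pt σ k₁ w₁)
      rw [hpt]; exact hU.mem_nhds hz₀)
  obtain ⟨r, hr, hball⟩ := Metric.eventually_nhds_iff_ball.1 hnb
  have hin : ∀ k ∈ ball k₁ r, ∀ w ∈ ball w₁ r, pt σ k w ∈ U := by
    intro k hk w hw
    exact hball (k, w) (by rw [mem_ball, Prod.dist_eq]; exact max_lt hk hw)
  -- for `k` in the ball, constant in `w`
  have hA : ∀ k ∈ ball k₁ r, ∀ w w' : ℂ, 0 < w.im → k.im < (s - σ) * w.im → 0 < w'.im →
      k.im < (s - σ) * w'.im → X (pt σ k w) = X (pt σ k w') := by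
    intro k hk
    have hmem1 : pt σ k w₁ ∈ Wc s := hUs (hin k hk w₁ (mem_ball_self hr))
    have hw1d : w₁ ∈ {w : ℂ | 0 < w.im ∧ k.im < (s - σ) * w.im} := by
      refine ⟨hmem1.1, ?_⟩
      have h2 := hmem1.2
      simp only [pt, add_im, mul_im, ofReal_re, ofReal_im, zero_mul, add_zero] at h2
      nlinarith
    have han := (diffOn_w (σ := σ) hX k).analyticOnNhd (isOpen_wdom k)
    have hconst : ∀ w ∈ ball w₁ r, X (pt σ k w) = X (pt σ k w₁) := by
      intro w hw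
      refine isOpen_ball.is_const_of_deriv_eq_zero (convex_ball w₁ r).isPreconnected
        (f := fun v => X (pt σ k v)) ?_ ?_ hw (mem_ball_self hr)
      · intro v hv
        exact (hasDerivAt_w hX (hUs (hin k hk v hv))).differentiableAt.differentiableWithinAt
      · intro v hv
        have h1 := (hasDerivAt_w hX (hUs (hin k hk v hv))).deriv
        rw [h0 _ (hin k hk v hv)] at h1
        simpa using h1
    have hall : ∀ w ∈ {w : ℂ | 0 < w.im ∧ k.im < (s - σ) * w.im},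
        X (pt σ k w) = X (pt σ k w₁) := by
      intro w hw
      refine han.eqOn_of_preconnected_of_eventuallyEq
        (g := fun _ => X (pt σ k w₁)) analyticOnNhd_const
        (convex_wdom k).isPreconnected hw1d ?_ hw
      filter_upwards [ball_mem_nhds w₁ hr] with v hv
      exact hconst v hv
    intro w w' hw hkw hw' hkw'
    rw [hall w ⟨hw, hkw⟩, hall w' ⟨hw', hkw'⟩]
  -- very negative kappa: equality for large `Im w`, then for all `w`
  set B : ℝ := max 1 ((k₁.im + r) / (s - σ)) with hB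
  have hB1 : 1 ≤ B := le_max_left _ _
  have hBk : k₁.im + r ≤ (s - σ) * B := by
    have : (k₁.im + r) / (s - σ) ≤ B := le_max_right _ _
    calc k₁.im + r = (s - σ) * ((k₁.im + r) / (s - σ)) := by field_simp
      _ ≤ (s - σ) * B := mul_le_mul_of_nonneg_left this hsσ.le
  have hC : ∀ k : ℂ, k.im ≤ 0 → ∀ w w' : ℂ, B ≤ w.im → B ≤ w'.im →
      X (pt σ k w) = X (pt σ k w') := by
    intro k hk w w' hw hw'
    have hw0 : 0 < w.im := by linarith
    have hw0' : 0 < w'.im := by linarith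
    have hkk : k₁.im < (s - σ) * B := by linarith
    refine ident (c := (s - σ) * B) (f := fun q => X (pt σ q w)) (g := fun q => X (pt σ q w'))
      (diffOn_k hX hw0 (mul_le_mul_of_nonneg_left hw hsσ.le))
      (diffOn_k hX hw0' (mul_le_mul_of_nonneg_left hw' hsσ.le))
      (k₀ := k₁) hkk ?_ k (lt_of_le_of_lt hk (mul_pos hsσ (by linarith)))
    have hev : ∀ᶠ q : ℂ in 𝓝[≠] k₁, q ∈ ball k₁ r ∧ q.im < (s - σ) * B :=
      mem_nhdsWithin_of_mem_nhds (inter_mem (ball_mem_nhds k₁ hr) ((isOpen_imlt _).mem_nhds hkk))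
    refine hev.frequently.mono ?_
    rintro q ⟨hq1, hq2⟩
    exact hA q hq1 w w' hw0 (hq2.trans_le (mul_le_mul_of_nonneg_left hw hsσ.le)) hw0'
      (hq2.trans_le (mul_le_mul_of_nonneg_left hw' hsσ.le))
  refine glue hs hX (k₀ := -I) (by simp) ?_
  have hev : ∀ᶠ k : ℂ in 𝓝[≠] (-I : ℂ), k.im < 0 :=
    mem_nhdsWithin_of_mem_nhds ((isOpen_imlt 0).mem_nhds (by simp))
  refine hev.frequently.mono ?_
  intro k hk
  have han := (diffOn_w (σ := σ) hX k).analyticOnNhd (isOpen_wdom k)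
  set wB : ℂ := ((B + 1 : ℝ) : ℂ) * I with hwB
  have hwBim : wB.im = B + 1 := by simp [hwB]
  have hwBd : wB ∈ {w : ℂ | 0 < w.im ∧ k.im < (s - σ) * w.im} := by
    refine ⟨by rw [hwBim]; linarith, ?_⟩
    rw [hwBim]
    have : 0 < (s - σ) * (B + 1) := mul_pos hsσ (by linarith)
    linarith
  have hall : ∀ w ∈ {w : ℂ | 0 < w.im ∧ k.im < (s - σ) * w.im},
      X (pt σ k w) = X (pt σ k wB) := by
    intro w hw
    refine han.eqOn_of_preconnected_of_eventuallyEq
      (g := fun _ => X (pt σ k wB)) analyticOnNhd_const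
      (convex_wdom k).isPreconnected hwBd ?_ hw
    have hev2 : ∀ᶠ v : ℂ in 𝓝 wB, B < v.im :=
      (isOpen_lt continuous_const Complex.continuous_im).mem_nhds (by
        show B < wB.im
        rw [hwBim]; linarith)
    filter_upwards [hev2] with v hv
    exact hC k hk.le v wB hv.le (by rw [hwBim]; linarith)
  intro w w' hw hkw hw' hkw'
  rw [hall w ⟨hw, hkw⟩, hall w' ⟨hw', hkw'⟩]

omit [NormedSpace ℂ E] in
/-- growth of `y` from growth of `X` in inner cones, at heights `>= 1` only -/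
theorem growth_y1 (hs : σ < s) {y : ℂ → E} (hy : ∀ z ∈ Wc s, X z = y (z.1 - σ * z.2)) {θ : ℝ}
    (hg : ∀ s' < s, ∀ M : ℝ, ∃ A : ℝ, ∀ z ∈ Wc s, 1 ≤ z.2.im → z.1.im ≤ s' * z.2.im →
      ‖z‖ ≤ M * z.2.im → ‖X z‖ ≤ A * (1 + ‖z‖) ^ θ) :
    ∃ A : ℝ, ∀ k, ‖y k‖ ≤ A * (1 + ‖k‖) ^ (max θ 0) := by
  have hsσ : 0 < s - σ := by linarith
  set s' := (σ + s) / 2 with hs'
  have hs's : s' < s := by rw [hs']; linarith
  have hσs' : 0 < s' - σ := by rw [hs']; linarith
  set c₁ : ℝ := 1 + 1 / (s' - σ) with hc₁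
  have hc1 : 1 ≤ c₁ := by rw [hc₁]; have : 0 < 1 / (s' - σ) := by positivity
                          linarith
  set M : ℝ := |σ| + 2 with hM
  obtain ⟨A, hA⟩ := hg s' hs's M
  set t := max θ 0 with ht
  have ht0 : 0 ≤ t := le_max_right _ _
  refine ⟨|A| * (1 + M * c₁) ^ t, fun k => ?_⟩
  set N : ℝ := (1 + ‖k‖) * c₁ with hN
  have hk0 := norm_nonneg k
  have hN1 : 1 + ‖k‖ ≤ N := by rw [hN]; nlinarith
  have hNpos : 0 < N := by linarith
  have hNim : ((N : ℂ) * I).im = N := by simp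
  have hkim : k.im ≤ ‖k‖ := (le_abs_self _).trans (Complex.abs_im_le_norm k)
  have hkN : k.im < (s' - σ) * N := by
    have h1 : (s' - σ) * N = (1 + ‖k‖) * ((s' - σ) * c₁) := by rw [hN]; ring
    have h2 : (s' - σ) * c₁ = (s' - σ) + 1 := by rw [hc₁]; field_simp
    rw [h1, h2]; nlinarith
  have hmem : pt σ k ((N : ℂ) * I) ∈ Wc s := by
    refine pt_mem (by rw [hNim]; exact hNpos) ?_
    rw [hNim]
    have : (s' - σ) * N ≤ (s - σ) * N := mul_le_mul_of_nonneg_right (by linarith) hNpos.le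
    linarith
  have h1 : (pt σ k ((N : ℂ) * I)).1.im ≤ s' * (pt σ k ((N : ℂ) * I)).2.im := by
    simp only [pt, add_im, mul_im, ofReal_re, ofReal_im, zero_mul, add_zero, I_re, I_im, mul_one,
      mul_zero]
    nlinarith
  have hnorm : ‖pt σ k ((N : ℂ) * I)‖ ≤ M * N := by
    rw [Prod.norm_def]
    refine max_le ?_ ?_
    · show ‖k + σ * ((N : ℂ) * I)‖ ≤ M * N
      calc ‖k + σ * ((N : ℂ) * I)‖ ≤ ‖k‖ + ‖(σ : ℂ) * ((N : ℂ) * I)‖ := norm_add_le _ _
        _ = ‖k‖ + |σ| * N := by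
            rw [norm_mul, norm_mul, Complex.norm_I, mul_one, Complex.norm_real, Complex.norm_real,
              Real.norm_eq_abs, Real.norm_eq_abs, abs_of_pos hNpos]
        _ ≤ M * N := by rw [hM]; nlinarith [abs_nonneg σ]
    · show ‖(N : ℂ) * I‖ ≤ M * N
      rw [norm_mul, Complex.norm_I, mul_one, Complex.norm_real, Real.norm_eq_abs,
        abs_of_pos hNpos, hM]
      nlinarith [abs_nonneg σ]
  have h2 : ‖pt σ k ((N : ℂ) * I)‖ ≤ M * (pt σ k ((N : ℂ) * I)).2.im := by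
    have : (pt σ k ((N : ℂ) * I)).2.im = N := hNim
    rw [this]; exact hnorm
  have h0' : 1 ≤ (pt σ k ((N : ℂ) * I)).2.im := by
    have : (pt σ k ((N : ℂ) * I)).2.im = N := hNim
    rw [this]; linarith
  have h3 := hA _ hmem h0' h1 h2
  have h4 : y k = X (pt σ k ((N : ℂ) * I)) := by
    rw [hy _ hmem, pt_kappa]
  rw [h4]
  have hn0 := norm_nonneg (pt σ k ((N : ℂ) * I))
  have h5 : 1 + ‖pt σ k ((N : ℂ) * I)‖ ≤ (1 + M * c₁) * (1 + ‖k‖) := by
    have : M * N = M * c₁ * (1 + ‖k‖) := by rw [hN]; ring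
    rw [this] at hnorm
    nlinarith
  have hM0 : 0 ≤ M := by rw [hM]; positivity
  calc ‖X (pt σ k ((N : ℂ) * I))‖ ≤ A * (1 + ‖pt σ k ((N : ℂ) * I)‖) ^ θ := h3
    _ ≤ |A| * (1 + ‖pt σ k ((N : ℂ) * I)‖) ^ θ :=
        mul_le_mul_of_nonneg_right (le_abs_self A) (Real.rpow_nonneg (by linarith) _)
    _ ≤ |A| * (1 + ‖pt σ k ((N : ℂ) * I)‖) ^ t :=
        mul_le_mul_of_nonneg_left
          (Real.rpow_le_rpow_of_exponent_le (by linarith) (le_max_left _ _)) (abs_nonneg A)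
    _ ≤ |A| * ((1 + M * c₁) * (1 + ‖k‖)) ^ t :=
        mul_le_mul_of_nonneg_left (Real.rpow_le_rpow (by linarith) h5 ht0) (abs_nonneg A)
    _ = |A| * (1 + M * c₁) ^ t * (1 + ‖k‖) ^ t := by
        rw [Real.mul_rpow (by positivity) (by positivity)]; ring

omit [NormedSpace ℂ E] in
/-- growth of `y` from growth of `X` in inner cones -/
theorem growth_y (hs : σ < s) {y : ℂ → E} (hy : ∀ z ∈ Wc s, X z = y (z.1 - σ * z.2)) {θ : ℝ}
    (hg : ∀ s' < s, ∀ M : ℝ, ∃ A : ℝ, ∀ z ∈ Wc s, z.1.im ≤ s' * z.2.im → ‖z‖ ≤ M * z.2.im →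
      ‖X z‖ ≤ A * (1 + ‖z‖) ^ θ) :
    ∃ A : ℝ, ∀ k, ‖y k‖ ≤ A * (1 + ‖k‖) ^ (max θ 0) :=
  growth_y1 hs hy fun s' hs' M => by
    obtain ⟨A, hA⟩ := hg s' hs' M
    exact ⟨A, fun z hz _ h1 h2 => hA z hz h1 h2⟩

/-- **A5.ENT, weak growth form** (heights `>= 1` only): derivative along `(sigma,1)` zero on
Sigma => constant -/
theorem wide_const1 [CompleteSpace E] (hs : σ < s) (hX : DifferentiableOn ℂ X (Wc s))
    (h0 : ∀ z ∈ Wc s, (z.1 - σ * z.2).im = 0 → fderiv ℂ X z ((σ : ℂ), 1) = 0) {θ : ℝ}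
    (hθ : θ < 1)
    (hg : ∀ s' < s, ∀ M : ℝ, ∃ A : ℝ, ∀ z ∈ Wc s, 1 ≤ z.2.im → z.1.im ≤ s' * z.2.im →
      ‖z‖ ≤ M * z.2.im → ‖X z‖ ≤ A * (1 + ‖z‖) ^ θ) :
    ∃ c, ∀ z ∈ Wc s, X z = c := by
  obtain ⟨y, hy, hyX⟩ := wide_entire hs hX h0
  obtain ⟨A, hA⟩ := growth_y1 hs hyX hg
  obtain ⟨c, hc⟩ := entire_sublinear hy (max_lt hθ one_pos) hA
  exact ⟨c, fun z hz => by rw [hyX z hz, hc]⟩

/-- weak growth form, from a small open set -/
theorem wide_const_open1 [CompleteSpace E] (hs : σ < s) (hX : DifferentiableOn ℂ X (Wc s))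
    {U : Set (ℂ × ℂ)} (hU : IsOpen U) (hUs : U ⊆ Wc s) (hne : U.Nonempty)
    (h0 : ∀ z ∈ U, fderiv ℂ X z ((σ : ℂ), 1) = 0) {θ : ℝ} (hθ : θ < 1)
    (hg : ∀ s' < s, ∀ M : ℝ, ∃ A : ℝ, ∀ z ∈ Wc s, 1 ≤ z.2.im → z.1.im ≤ s' * z.2.im →
      ‖z‖ ≤ M * z.2.im → ‖X z‖ ≤ A * (1 + ‖z‖) ^ θ) :
    ∃ c, ∀ z ∈ Wc s, X z = c := by
  obtain ⟨y, hy, hyX⟩ := wide_entire_open hs hX hU hUs hne h0
  obtain ⟨A, hA⟩ := growth_y1 hs hyX hg
  obtain ⟨c, hc⟩ := entire_sublinear hy (max_lt hθ one_pos) hA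
  exact ⟨c, fun z hz => by rw [hyX z hz, hc]⟩

/-- **A5.ENT**: derivative along `(sigma,1)` zero on Sigma, growth exponent `< 1` in inner cones
=> constant -/
theorem wide_const [CompleteSpace E] (hs : σ < s) (hX : DifferentiableOn ℂ X (Wc s))
    (h0 : ∀ z ∈ Wc s, (z.1 - σ * z.2).im = 0 → fderiv ℂ X z ((σ : ℂ), 1) = 0) {θ : ℝ}
    (hθ : θ < 1)
    (hg : ∀ s' < s, ∀ M : ℝ, ∃ A : ℝ, ∀ z ∈ Wc s, z.1.im ≤ s' * z.2.im → ‖z‖ ≤ M * z.2.im →
      ‖X z‖ ≤ A * (1 + ‖z‖) ^ θ) :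
    ∃ c, ∀ z ∈ Wc s, X z = c := by
  obtain ⟨y, hy, hyX⟩ := wide_entire hs hX h0
  obtain ⟨A, hA⟩ := growth_y hs hyX hg
  obtain ⟨c, hc⟩ := entire_sublinear hy (max_lt hθ one_pos) hA
  exact ⟨c, fun z hz => by rw [hyX z hz, hc]⟩

/-- the same from a small open set -/
theorem wide_const_open [CompleteSpace E] (hs : σ < s) (hX : DifferentiableOn ℂ X (Wc s))
    {U : Set (ℂ × ℂ)} (hU : IsOpen U) (hUs : U ⊆ Wc s) (hne : U.Nonempty)
    (h0 : ∀ z ∈ U, fderiv ℂ X z ((σ : ℂ), 1) = 0) {θ : ℝ} (hθ : θ < 1)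
    (hg : ∀ s' < s, ∀ M : ℝ, ∃ A : ℝ, ∀ z ∈ Wc s, z.1.im ≤ s' * z.2.im → ‖z‖ ≤ M * z.2.im →
      ‖X z‖ ≤ A * (1 + ‖z‖) ^ θ) :
    ∃ c, ∀ z ∈ Wc s, X z = c := by
  obtain ⟨y, hy, hyX⟩ := wide_entire_open hs hX hU hUs hne h0
  obtain ⟨A, hA⟩ := growth_y hs hyX hg
  obtain ⟨c, hc⟩ := entire_sublinear hy (max_lt hθ one_pos) hA
  exact ⟨c, fun z hz => by rw [hyX z hz, hc]⟩

end core

/-- scalar version with values in a half plane (or strip) on the wide cone -/
theorem wide_const_im {σ s H : ℝ} {X : ℂ × ℂ → ℂ} (hs : σ < s)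
    (hX : DifferentiableOn ℂ X (Wc s))
    (h0 : ∀ z ∈ Wc s, (z.1 - σ * z.2).im = 0 → fderiv ℂ X z ((σ : ℂ), 1) = 0)
    (hH : ∀ z ∈ Wc s, -H ≤ (X z).im) : ∃ c, ∀ z ∈ Wc s, X z = c := by
  obtain ⟨y, hy, hyX⟩ := wide_entire hs hX h0
  have hsσ : 0 < s - σ := by linarith
  have hk : ∀ k, -H ≤ (y k).im := by
    intro k
    set N : ℝ := (|k.im| + 1) / (s - σ) with hN
    have hN0 : 0 < N := div_pos (by positivity) hsσ
    have hN1 : (s - σ) * N = |k.im| + 1 := by rw [hN]; field_simp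
    have hIm : ((N : ℂ) * I).im = N := by simp
    have hmem : pt σ k ((N : ℂ) * I) ∈ Wc s := by
      refine pt_mem (by rw [hIm]; exact hN0) ?_
      rw [hIm, hN1]; linarith [le_abs_self k.im]
    have := hH _ hmem
    rwa [hyX _ hmem, pt_kappa] at this
  obtain ⟨c, hc⟩ := entire_halfplane hy hk
  exact ⟨c, fun z hz => by rw [hyX z hz, hc]⟩

end Vale.Agent.P097.H100
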